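import Vale.Agent.P129.H168.Gen

/-! The dual of `X` is `V`. -/

open Filter Topology

namespace Vale.Agent.P129.H168

universe u v

variable {ι : Type u} [LinearOrder ι] {V : Type v} [NormedAddCommGroup V] [NormedSpace ℝ V]

theorem Frame.denseSpan (F : Frame ι V) :
    Dense ((Submodule.span ℝ (Set.range F.e) : Submodule ℝ V) : Set V) :=
  Submodule.dense_iff_topologicalClosure_eq_top.2 F.dense

theorem Frame.P_P (F : Frame ι V) (a b : ι) (v : V) : F.P a (F.P b v) = F.P (min a b) v := by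
  have : (F.P a).comp (F.P b) = F.P (min a b) := by
    refine ContinuousLinearMap.ext_on F.denseSpan ?_
    rintro _ ⟨i, rfl⟩
    simp only [ContinuousLinearMap.comp_apply, F.P_e]
    by_cases h1 : i < b <;> by_cases h2 : i < a <;> simp [h1, h2, F.P_e]
  rw [← this]; rfl

theorem Generators.y_P {F : Frame ι V} {B : BranchSystem F} (G : Generators B) {μ a : ι}
    (h : μ < a) (v : V) : G.y μ (F.P a v) = G.y μ v := by
  have : (G.y μ).comp (F.P a) = G.y μ := by
    refine ContinuousLinearMap.ext_on F.denseSpan ?_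
    rintro _ ⟨i, rfl⟩
    simp only [ContinuousLinearMap.comp_apply, F.P_e]
    by_cases h1 : i < a
    · simp [h1]
    · simp only [h1, if_false, map_zero]
      rw [G.y_lt μ i (h.trans_le (not_lt.1 h1))]
  conv_rhs => rw [← this]
  rfl

theorem Generators.span_P {F : Frame ι V} {B : BranchSystem F} (G : Generators B) {a : ι}
    {z : StrongDual ℝ V} (hz : z ∈ Submodule.span ℝ (G.y '' Set.Iio a)) (v : V) :
    z (F.P a v) = z v := by
  induction hz using Submodule.span_induction with
  | mem x hx => obtain ⟨μ, hμ, rfl⟩ := hx; exact G.y_P hμ v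
  | zero => rfl
  | add x y _ _ hx hy => rw [add_apply, add_apply, hx, hy]
  | smul c x _ hx => rw [smul_apply, smul_apply, hx]

theorem Generators.unique_lt {F : Frame ι V} {B : BranchSystem F} (G : Generators B) {a : ι}
    {v w : V} (hv : F.P a v = v) (hw : F.P a w = w)
    (h : ∀ z ∈ Submodule.span ℝ (G.y '' Set.Iio a), z v = z w) : v = w := by
  have h1 := G.norming_lt a (v - w) 0 le_rfl (by rw [map_sub, hv, hw]) fun z hz => by
    rw [map_sub, h z hz, sub_self, abs_zero, zero_mul]
  rw [mul_zero] at h1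
  exact sub_eq_zero.1 (norm_le_zero_iff.1 h1)

/-- Bounded coherent families converge. -/
theorem Frame.exists_lim [CompleteSpace V] (F : Frame ι V) (T : Set ι) (hT : T.Nonempty)
    (w : ι → V) (C : ℝ) (hC : ∀ b ∈ T, ‖w b‖ ≤ C)
    (hcoh : ∀ b ∈ T, ∀ c ∈ T, b ≤ c → F.P b (w c) = w b) :
    ∃ v, Tendsto (fun b : T => w b) atTop (𝓝 v) := by
  have : Nonempty T := hT.to_subtype
  refine cauchySeq_tendsto_of_complete ?_
  rw [Metric.cauchySeq_iff']
  by_contra hcon
  push Not at hcon
  obtain ⟨δ, hδ, hcon⟩ := hcon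
  choose nxt hn1 hn2 using hcon
  obtain ⟨b₀⟩ := ‹Nonempty T›
  let a : ℕ → T := fun n => nxt^[n] b₀
  have ha : ∀ n, a (n + 1) = nxt (a n) := fun n => by
    simp only [a, Function.iterate_succ_apply']
  have hmono : Monotone a := monotone_nat_of_le_succ fun n => by rw [ha]; exact hn1 _
  have hmono' : Monotone fun n => (a n : ι) := fun i j h => hmono h
  have key : ∀ N : ℕ, (N : ℝ) * δ ≤ F.m N * ‖w (a N)‖ := by
    intro N
    have h1 := F.sum_le (fun n => (a n : ι)) hmono' N (w (a N))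
    refine le_trans ?_ h1
    have h2 : ∀ i ∈ Finset.range N, δ ≤
        ‖F.P (a (i + 1)) (w (a N)) - F.P (a i) (w (a N))‖ := by
      intro i hi
      have hi' : i < N := Finset.mem_range.1 hi
      rw [hcoh _ (a (i + 1)).2 _ (a N).2 (hmono hi'), hcoh _ (a i).2 _ (a N).2 (hmono hi'.le),
        ← dist_eq_norm, ha]
      exact hn2 (a i)
    calc (N : ℝ) * δ = ∑ _i ∈ Finset.range N, δ := by simp
      _ ≤ _ := Finset.sum_le_sum h2
  have hC0 : 0 ≤ C := (norm_nonneg _).trans (hC _ b₀.2)
  have h3 : ∀ᶠ N : ℕ in atTop, F.m N / N < δ / (C + 1) :=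
    F.m_small.eventually_lt_const (by positivity)
  obtain ⟨N, hN, hN0⟩ := (h3.and (eventually_gt_atTop 0)).exists
  have hN0' : (0 : ℝ) < N := by exact_mod_cast hN0
  have h4 : F.m N < N * (δ / (C + 1)) := by
    rw [div_lt_iff₀ hN0'] at hN
    linarith
  have h5 := key N
  have h6 : 0 ≤ ‖w (a N)‖ := norm_nonneg _
  have h7 : ‖w (a N)‖ ≤ C := hC _ (a N).2
  have h8 : F.m N * ‖w (a N)‖ ≤ N * (δ / (C + 1)) * C := by
    calc F.m N * ‖w (a N)‖ ≤ (N * (δ / (C + 1))) * ‖w (a N)‖ :=
          mul_le_mul_of_nonneg_right h4.le h6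
      _ ≤ _ := mul_le_mul_of_nonneg_left h7 (by positivity)
  have h9 : N * (δ / (C + 1)) * C < N * δ := by
    have : δ / (C + 1) * C < δ := by
      rw [div_mul_eq_mul_div, div_lt_iff₀ (by positivity)]
      nlinarith
    nlinarith
  linarith

theorem tendsto_unique_P {F : Frame ι V} (T : Set ι) (hT : T.Nonempty)
    (w : ι → V) (a : ι) (hTa : ∀ b ∈ T, b ≤ a) (hw : ∀ b ∈ T, F.P b (w b) = w b) (v : V)
    (hv : Tendsto (fun b : T => w b) atTop (𝓝 v)) : F.P a v = v := by
  have : Nonempty T := hT.to_subtype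
  have h1 : Tendsto (fun b : T => F.P a (w b)) atTop (𝓝 (F.P a v)) :=
    ((F.P a).continuous.tendsto _).comp hv
  refine tendsto_nhds_unique h1 (hv.congr fun b => ?_)
  rw [← hw b b.2, F.P_P, min_eq_right (hTa b b.2)]

/-- The vector representing `f` on the span of the generators below `a`. -/
theorem Generators.exists_lt [WellFoundedLT ι] [CompleteSpace V] {F : Frame ι V}
    {B : BranchSystem F} (G : Generators B) (f : StrongDual ℝ V → ℝ)
    (hadd : ∀ x ∈ Submodule.span ℝ (Set.range G.y), ∀ y ∈ Submodule.span ℝ (Set.range G.y),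
      f (x + y) = f x + f y)
    (hsmul : ∀ c : ℝ, ∀ x ∈ Submodule.span ℝ (Set.range G.y), f (c • x) = c * f x)
    (C : ℝ) (hC0 : 0 ≤ C) (hC : ∀ x ∈ Submodule.span ℝ (Set.range G.y), |f x| ≤ C * ‖x‖) (a : ι) :
    ∃ v, F.P a v = v ∧ ∀ z ∈ Submodule.span ℝ (G.y '' Set.Iio a), f z = z v := by
  have hsub : ∀ a : ι, Submodule.span ℝ (G.y '' Set.Iio a) ≤ Submodule.span ℝ (Set.range G.y) :=
    fun a => Submodule.span_mono (Set.image_subset_range _ _)
  have hspan : ∀ (a : ι) (v : V), (∀ b < a, f (G.y b) = G.y b v) →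
      ∀ z ∈ Submodule.span ℝ (G.y '' Set.Iio a), f z = z v := by
    intro a v h z hz
    have hf0 : f 0 = 0 := by
      have := hsmul 0 0 (Submodule.zero_mem _)
      rwa [zero_smul, zero_mul] at this
    induction hz using Submodule.span_induction with
    | mem x hx => obtain ⟨μ, hμ, rfl⟩ := hx; exact h μ hμ
    | zero => rw [hf0]; rfl
    | add x y hx' hy' hx hy => rw [add_apply, hadd x (hsub a hx') y (hsub a hy'), hx, hy]
    | smul c x hx' hx => rw [smul_apply, hsmul c x (hsub a hx'), hx, smul_eq_mul]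
  induction a using (wellFounded_lt (α := ι)).induction with
  | _ a ih =>
    rcases Set.eq_empty_or_nonempty (Set.Iio a) with hemp | hne
    · refine ⟨0, map_zero _, hspan a 0 fun b hb => ?_⟩
      exact absurd hb (by rw [← Set.mem_Iio, hemp]; exact Set.notMem_empty _)
    · by_cases hmax : ∀ b ∈ Set.Iio a, ∃ c ∈ Set.Iio a, b < c
      · choose! w hw1 hw2 using ih
        have hcoh : ∀ b ∈ Set.Iio a, ∀ c ∈ Set.Iio a, b ≤ c → F.P b (w c) = w b := by
          intro b hb c hc hbc
          refine G.unique_lt (a := b) (by rw [F.P_P, min_self]) (hw1 b hb) fun z hz => ?_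
          rw [G.span_P hz, ← hw2 b hb z hz, ← hw2 c hc z
            (Submodule.span_mono (Set.image_mono (Set.Iio_subset_Iio hbc)) hz)]
        have hbd : ∀ b ∈ Set.Iio a, ‖w b‖ ≤ 3 * C := by
          intro b hb
          refine G.norming_lt b (w b) C hC0 (hw1 b hb) fun z hz => ?_
          rw [← hw2 b hb z hz]
          exact hC z (hsub b hz)
        obtain ⟨v, hv⟩ := F.exists_lim (Set.Iio a) hne w (3 * C) hbd hcoh
        refine ⟨v, tendsto_unique_P (Set.Iio a) hne w a (fun b hb => le_of_lt hb)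
          (fun b hb => hw1 b hb) v hv, hspan a v fun b hb => ?_⟩
        have : Nonempty (Set.Iio a) := hne.to_subtype
        have h1 : Tendsto (fun c : Set.Iio a => G.y b (w c)) atTop (𝓝 (G.y b v)) :=
          ((G.y b).continuous.tendsto _).comp hv
        refine tendsto_nhds_unique ?_ h1
        obtain ⟨c₀, hc₀, hbc₀⟩ := hmax b hb
        refine tendsto_const_nhds.congr' ?_
        filter_upwards [eventually_ge_atTop (⟨c₀, hc₀⟩ : Set.Iio a)] with c hc
        exact hw2 c c.2 _ (Submodule.subset_span ⟨b, lt_of_lt_of_le hbc₀ hc, rfl⟩)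
      · push Not at hmax
        obtain ⟨b, hb, hbmax⟩ := hmax
        obtain ⟨w, hw1, hw2⟩ := ih b hb
        have hba : b < a := hb
        refine ⟨w + (f (G.y b) - G.y b w) • F.e b, ?_, hspan a _ fun c hc => ?_⟩
        · rw [map_add, map_smul, F.P_e, if_pos hba, ← hw1, F.P_P, min_eq_right hba.le]
        · rcases lt_or_eq_of_le (hbmax c hc) with hcb | rfl
          · rw [hw2 _ (Submodule.subset_span ⟨c, hcb, rfl⟩), map_add, map_smul, G.y_lt c b hcb,
              smul_zero, add_zero]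
          · rw [map_add, map_smul, G.y_self, smul_eq_mul, mul_one]; ring

theorem dualIsV : DualIsV.{u, v} := by
  intro ι _ _ _ _ V _ _ _ F B G f C' hC'
  -- extend `f` by zero outside the span
  classical
  set C := max C' 0 with hCdef
  have hC0 : 0 ≤ C := le_max_right _ _
  have hC : ∀ z : G.X, |f z| ≤ C * ‖(z : StrongDual ℝ V)‖ := fun z =>
    (hC' z).trans (mul_le_mul_of_nonneg_right (le_max_left _ _) (norm_nonneg _))
  have hsX : Submodule.span ℝ (Set.range G.y) ≤ G.X := Submodule.le_topologicalClosure _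
  let g : StrongDual ℝ V → ℝ := fun z => if h : z ∈ G.X then f ⟨z, h⟩ else 0
  have hg : ∀ z (h : z ∈ G.X), g z = f ⟨z, h⟩ := fun z h => dif_pos h
  have hadd : ∀ x ∈ Submodule.span ℝ (Set.range G.y), ∀ y ∈ Submodule.span ℝ (Set.range G.y),
      g (x + y) = g x + g y := by
    intro x hx y hy
    rw [hg _ (hsX (Submodule.add_mem _ hx hy)), hg _ (hsX hx), hg _ (hsX hy), ← map_add]
    rfl
  have hsmul : ∀ c : ℝ, ∀ x ∈ Submodule.span ℝ (Set.range G.y), g (c • x) = c * g x := by
    intro c x hx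
    rw [hg _ (hsX (Submodule.smul_mem _ _ hx)), hg _ (hsX hx), ← smul_eq_mul, ← map_smul]
    rfl
  have hbd : ∀ x ∈ Submodule.span ℝ (Set.range G.y), |g x| ≤ C * ‖x‖ := by
    intro x hx
    rw [hg _ (hsX hx)]
    exact hC _
  choose w hw1 hw2 using fun a => G.exists_lt g hadd hsmul C hC0 hbd a
  have hcoh : ∀ b ∈ (Set.univ : Set ι), ∀ c ∈ (Set.univ : Set ι), b ≤ c →
      F.P b (w c) = w b := by
    intro b _ c _ hbc
    refine G.unique_lt (a := b) (by rw [F.P_P, min_self]) (hw1 b) fun z hz => ?_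
    rw [G.span_P hz, ← hw2 b z hz, ← hw2 c z
      (Submodule.span_mono (Set.image_mono (Set.Iio_subset_Iio hbc)) hz)]
  have hbd2 : ∀ b ∈ (Set.univ : Set ι), ‖w b‖ ≤ 3 * C := by
    intro b _
    refine G.norming_lt b (w b) C hC0 (hw1 b) fun z hz => ?_
    rw [← hw2 b z hz]
    exact hbd z (Submodule.span_mono (Set.image_subset_range _ _) hz)
  obtain ⟨v, hv⟩ := F.exists_lim Set.univ Set.univ_nonempty w _ hbd2 hcoh
  refine ⟨v, ?_⟩
  -- agreement on generators
  have hgen : ∀ b, g (G.y b) = G.y b v := by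
    intro b
    have h1 : Tendsto (fun c : (Set.univ : Set ι) => G.y b (w c)) atTop (𝓝 (G.y b v)) :=
      ((G.y b).continuous.tendsto _).comp hv
    refine tendsto_nhds_unique ?_ h1
    obtain ⟨c₀, hbc₀⟩ := exists_gt b
    refine tendsto_const_nhds.congr' ?_
    filter_upwards [eventually_ge_atTop (⟨c₀, trivial⟩ : (Set.univ : Set ι))] with c hc
    exact hw2 c _ (Submodule.subset_span ⟨b, lt_of_lt_of_le hbc₀ hc, rfl⟩)
  have hspan : ∀ z ∈ Submodule.span ℝ (Set.range G.y), g z = z v := by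
    intro z hz
    have hf0 : g 0 = 0 := by
      have := hsmul 0 0 (Submodule.zero_mem _)
      rwa [zero_smul, zero_mul] at this
    induction hz using Submodule.span_induction with
    | mem x hx => obtain ⟨μ, rfl⟩ := hx; exact hgen μ
    | zero => rw [hf0]; rfl
    | add x y hx' hy' hx hy => rw [add_apply, hadd x hx' y hy', hx, hy]
    | smul c x hx' hx => rw [smul_apply, hsmul c x hx', hx, smul_eq_mul]
  intro z
  -- closure argument
  have hz : (z : StrongDual ℝ V) ∈ closure
      ((Submodule.span ℝ (Set.range G.y) : Submodule ℝ (StrongDual ℝ V)) :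
        Set (StrongDual ℝ V)) := by
    have h0 := z.2
    unfold Generators.X at h0
    rw [← SetLike.mem_coe, Submodule.topologicalClosure_coe] at h0
    exact h0
  obtain ⟨s, hs1, hs2⟩ := mem_closure_iff_seq_limit.1 hz
  have h2 : Tendsto (fun n => s n v) atTop (𝓝 ((z : StrongDual ℝ V) v)) :=
    ((ContinuousLinearMap.apply ℝ ℝ v).continuous.tendsto _).comp hs2
  have h1 : Tendsto (fun n => f ⟨s n, hsX (hs1 n)⟩) atTop (𝓝 (f z)) := by
    rw [tendsto_iff_norm_sub_tendsto_zero]
    have h3 : Tendsto (fun n => C * ‖s n - (z : StrongDual ℝ V)‖) atTop (𝓝 (C * 0)) :=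
      (tendsto_iff_norm_sub_tendsto_zero.1 hs2).const_mul C
    rw [mul_zero] at h3
    refine squeeze_zero (fun n => norm_nonneg _) (fun n => ?_) h3
    rw [← map_sub, Real.norm_eq_abs]
    exact hC _
  refine tendsto_nhds_unique h1 (h2.congr fun n => ?_)
  rw [← hspan _ (hs1 n), hg _ (hsX (hs1 n))]

end Vale.Agent.P129.H168
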