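import Mathlib

/-! Abstract setting for a transfinite monotone basis with a norming family of finitely supported
functionals, branches, and the space `X` they generate in the dual. -/

open Filter Topology

namespace Vale.Agent.P129.H168

universe u v

/-- A transfinite monotone basis `e` of `V`, indexed by `ι`, with the upper estimate
`∑ ‖(P (a (i+1)) - P (a i)) x‖ ≤ m n * ‖x‖`, and normed by finitely supported functionals with
coefficients of absolute value at most one. -/
structure Frame (ι : Type u) [LinearOrder ι] (V : Type v) [NormedAddCommGroup V]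
    [NormedSpace ℝ V] where
  /-- the basis vectors -/
  e : ι → V
  /-- the coordinate functionals -/
  es : ι → StrongDual ℝ V
  /-- the projection on the coordinates `< a` -/
  P : ι → V →L[ℝ] V
  norm_e_le : ∀ a, ‖e a‖ ≤ 1
  norm_es_le : ∀ a, ‖es a‖ ≤ 1
  es_e : ∀ a b, es a (e b) = if a = b then 1 else 0
  dense : (Submodule.span ℝ (Set.range e)).topologicalClosure = ⊤
  P_e : ∀ a b, P a (e b) = if b < a then e b else 0
  norm_P_le : ∀ a, ‖P a‖ ≤ 1
  norm_P_sub_le : ∀ a b, a ≤ b → ‖P b - P a‖ ≤ 1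
  norm_sub_P_le : ∀ a x, ‖x - P a x‖ ≤ ‖x‖
  /-- the growth function -/
  m : ℕ → ℝ
  m_small : Tendsto (fun n : ℕ => m n / n) atTop (𝓝 0)
  sum_le : ∀ a : ℕ → ι, Monotone a → ∀ (n : ℕ) (x : V),
    ∑ i ∈ Finset.range n, ‖P (a (i + 1)) x - P (a i) x‖ ≤ m n * ‖x‖
  norming : ∀ (x : V) (ε : ℝ), 0 < ε → ∃ (A : Finset ι) (c : ι → ℝ),
    (∀ a ∈ A, |c a| ≤ 1) ∧ ‖∑ a ∈ A, c a • es a‖ ≤ 1 ∧ ‖x‖ - ε ≤ ∑ a ∈ A, c a * es a x

/-- A branch: a sequence of finitely supported functionals (nodes) with summable coefficient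
bounds whose partial sums converge pointwise to a functional `lim`. -/
structure Branch {ι : Type u} [LinearOrder ι] {V : Type v} [NormedAddCommGroup V]
    [NormedSpace ℝ V] (F : Frame ι V) where
  /-- support of the `k`-th node -/
  supp : ℕ → Finset ι
  /-- coefficients of the `k`-th node -/
  coef : ℕ → ι → ℝ
  /-- bound for the coefficients of the `k`-th node -/
  bd : ℕ → ℝ
  bd_nonneg : ∀ k, 0 ≤ bd k
  bd_summable : Summable bd
  coef_le : ∀ k, ∀ a ∈ supp k, |coef k a| ≤ bd k
  /-- the limit functional -/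
  lim : StrongDual ℝ V
  lim_tendsto : ∀ x : V, Tendsto (fun K => ∑ k ∈ Finset.range K, ∑ a ∈ supp k, coef k a * F.es a x)
    atTop (𝓝 (lim x))

variable {ι : Type u} [LinearOrder ι] {V : Type v} [NormedAddCommGroup V] [NormedSpace ℝ V]

namespace Branch

variable {F : Frame ι V}

/-- The `k`-th node of a branch as a functional. -/
noncomputable def node (b : Branch F) (k : ℕ) : StrongDual ℝ V :=
  ∑ a ∈ b.supp k, b.coef k a • F.es a

/-- The tail of a branch from position `K` on. -/
noncomputable def tail (b : Branch F) (K : ℕ) : StrongDual ℝ V :=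
  b.lim - ∑ k ∈ Finset.range K, b.node k

end Branch

/-- A system of branches, one for each index (possibly the zero branch), with node supports below
the index and such that finitely many tails are eventually jointly bounded by the supremum norm of
the coefficients. -/
structure BranchSystem (F : Frame ι V) where
  br : ι → Branch F
  supp_lt : ∀ μ k, ∀ a ∈ (br μ).supp k, a < μ
  tails : ∀ A : Finset ι, ∃ K₀, ∀ K, K₀ ≤ K → ∀ (c : ι → ℝ) (C : ℝ), (∀ a ∈ A, |c a| ≤ C) → 0 ≤ C →
    ‖∑ a ∈ A, c a • (br a).tail K‖ ≤ C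

/-- Output of part (I): generators `y μ` of the space `X ⊆ V*`. -/
structure Generators {F : Frame ι V} (B : BranchSystem F) where
  y : ι → StrongDual ℝ V
  x : ι → ℕ → StrongDual ℝ V
  x_mem : ∀ μ k, x μ k ∈ Submodule.span ℝ (y '' Set.Iio μ)
  x_sub_node : ∀ μ k, ‖x μ k - (B.br μ).node k‖ ≤ 2 * (B.br μ).bd k
  y_eq : ∀ μ, y μ = F.es μ + (B.br μ).lim + ∑' k, (x μ k - (B.br μ).node k)
  y_self : ∀ μ, y μ (F.e μ) = 1
  y_lt : ∀ μ ν, μ < ν → y μ (F.e ν) = 0
  norming : ∀ (v : V) (M : ℝ), 0 ≤ M →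
    (∀ z ∈ Submodule.span ℝ (Set.range y), |z v| ≤ M * ‖z‖) → ‖v‖ ≤ 3 * M
  norming_lt : ∀ (a : ι) (v : V) (M : ℝ), 0 ≤ M → F.P a v = v →
    (∀ z ∈ Submodule.span ℝ (y '' Set.Iio a), |z v| ≤ M * ‖z‖) → ‖v‖ ≤ 3 * M

/-- The space `X`: the closed span of the generators in the dual of `V`. -/
noncomputable def Generators.X {F : Frame ι V} {B : BranchSystem F} (G : Generators B) :
    Submodule ℝ (StrongDual ℝ V) :=
  (Submodule.span ℝ (Set.range G.y)).topologicalClosure

/-- Target 1 of part (I): generators exist. -/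
def GeneratorsExist : Prop :=
  ∀ {ι : Type u} [LinearOrder ι] [WellFoundedLT ι] {V : Type v} [NormedAddCommGroup V]
    [NormedSpace ℝ V] [CompleteSpace V] (F : Frame ι V) (B : BranchSystem F),
    Nonempty (Generators B)

/-- Target 2 of part (I): every bounded linear functional on `X` is evaluation at a vector of
`V`. -/
def DualIsV : Prop :=
  ∀ {ι : Type u} [LinearOrder ι] [WellFoundedLT ι] [NoMaxOrder ι] [Nonempty ι] {V : Type v}
    [NormedAddCommGroup V] [NormedSpace ℝ V] [CompleteSpace V] (F : Frame ι V)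
    (B : BranchSystem F) (G : Generators B) (f : G.X →ₗ[ℝ] ℝ) (C : ℝ),
    (∀ z : G.X, |f z| ≤ C * ‖(z : StrongDual ℝ V)‖) →
    ∃ v : V, ∀ z : G.X, f z = (z : StrongDual ℝ V) v

end Vale.Agent.P129.H168
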