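import Vale.Agent.P129.H168.Frame

/-! Existence of the generators. -/

open Filter Topology

namespace Vale.Agent.P129.H168

universe u v

variable {ι : Type u} [LinearOrder ι] {V : Type v} [NormedAddCommGroup V] [NormedSpace ℝ V]

theorem Branch.node_apply {F : Frame ι V} (b : Branch F) (k : ℕ) (x : V) :
    b.node k x = ∑ a ∈ b.supp k, b.coef k a * F.es a x := by
  simp [Branch.node, sum_apply]

theorem Branch.tail_tendsto {F : Frame ι V} (b : Branch F) (x : V) :
    Tendsto (fun K => b.tail K x) atTop (𝓝 0) := by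
  have h := b.lim_tendsto x
  have h2 : Tendsto (fun K => b.lim x - ∑ k ∈ Finset.range K, ∑ a ∈ b.supp k,
      b.coef k a * F.es a x) atTop (𝓝 (b.lim x - b.lim x)) := tendsto_const_nhds.sub h
  rw [sub_self] at h2
  refine h2.congr fun K => ?_
  simp [Branch.tail, sum_apply, Branch.node_apply]

/-- The generator determined by the sequence `x`. -/
noncomputable def yOf {F : Frame ι V} (B : BranchSystem F) (μ : ι) (x : ℕ → StrongDual ℝ V) :
    StrongDual ℝ V :=
  F.es μ + (B.br μ).lim + ∑' k, (x k - (B.br μ).node k)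

theorem summable_sub_node [CompleteSpace V] {F : Frame ι V} (B : BranchSystem F) (μ : ι)
    (x : ℕ → StrongDual ℝ V) (hx : ∀ k, ‖x k - (B.br μ).node k‖ ≤ 2 * (B.br μ).bd k) :
    Summable fun k => (x k - (B.br μ).node k) :=
  Summable.of_norm_bounded ((B.br μ).bd_summable.mul_left 2) hx

/-- The remainder. -/
theorem yOf_sub [CompleteSpace V] {F : Frame ι V} (B : BranchSystem F) (μ : ι)
    (x : ℕ → StrongDual ℝ V) (K : ℕ) :
    yOf B μ x - ∑ j ∈ Finset.range K, x j - F.es μ = (B.br μ).tail K +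
      (∑' k, (x k - (B.br μ).node k) - ∑ k ∈ Finset.range K, (x k - (B.br μ).node k)) := by
  rw [Finset.sum_sub_distrib, yOf, Branch.tail]
  abel

theorem rem_tendsto [CompleteSpace V] {F : Frame ι V} (B : BranchSystem F) (μ : ι)
    (x : ℕ → StrongDual ℝ V) (hx : ∀ k, ‖x k - (B.br μ).node k‖ ≤ 2 * (B.br μ).bd k) :
    Tendsto (fun K => ∑' k, (x k - (B.br μ).node k) -
      ∑ k ∈ Finset.range K, (x k - (B.br μ).node k)) atTop (𝓝 0) := by
  have h := (summable_sub_node B μ x hx).hasSum.tendsto_sum_nat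
  have h2 := (tendsto_const_nhds (x := ∑' k, (x k - (B.br μ).node k))).sub h
  rwa [sub_self] at h2

/-- Pointwise convergence. -/
theorem yOf_sub_tendsto [CompleteSpace V] {F : Frame ι V} (B : BranchSystem F) (μ : ι)
    (x : ℕ → StrongDual ℝ V) (hx : ∀ k, ‖x k - (B.br μ).node k‖ ≤ 2 * (B.br μ).bd k) (v : V) :
    Tendsto (fun K => (yOf B μ x - ∑ j ∈ Finset.range K, x j) v) atTop (𝓝 (F.es μ v)) := by
  have h1 := (B.br μ).tail_tendsto v
  have h2 : Tendsto (fun K => (∑' k, (x k - (B.br μ).node k) -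
      ∑ k ∈ Finset.range K, (x k - (B.br μ).node k)) v) atTop (𝓝 ((0 : StrongDual ℝ V) v)) :=
    ((ContinuousLinearMap.apply ℝ ℝ v).continuous.tendsto _).comp (rem_tendsto B μ x hx)
  have h3 := (h1.add h2).add (tendsto_const_nhds (x := F.es μ v))
  simp only [zero_apply, zero_add] at h3
  refine h3.congr fun K => ?_
  have := yOf_sub B μ x K
  have h4 : yOf B μ x - ∑ j ∈ Finset.range K, x j = (B.br μ).tail K +
      (∑' k, (x k - (B.br μ).node k) - ∑ k ∈ Finset.range K, (x k - (B.br μ).node k)) +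
      F.es μ := by
    rw [← this]; abel
  rw [h4]
  simp only [add_apply]

/-- Norm estimate. -/
theorem approx [CompleteSpace V] {F : Frame ι V} (B : BranchSystem F)
    (x : ι → ℕ → StrongDual ℝ V) (A : Finset ι)
    (hx : ∀ a ∈ A, ∀ k, ‖x a k - (B.br a).node k‖ ≤ 2 * (B.br a).bd k)
    (c : ι → ℝ) (C : ℝ) (hC : ∀ a ∈ A, |c a| ≤ C) (hC0 : 0 ≤ C) :
    ∀ᶠ K in atTop, ‖∑ a ∈ A, c a • (yOf B a (x a) - ∑ j ∈ Finset.range K, x a j) -
      ∑ a ∈ A, c a • F.es a‖ ≤ 2 * C := by
  obtain ⟨K₀, hK₀⟩ := B.tails A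
  have h1 : Tendsto (fun K => ∑ a ∈ A, ‖∑' k, (x a k - (B.br a).node k) -
      ∑ k ∈ Finset.range K, (x a k - (B.br a).node k)‖) atTop (𝓝 (∑ a ∈ A, (0 : ℝ))) := by
    refine tendsto_finsetSum _ fun a ha => ?_
    have := (rem_tendsto B a (x a) (hx a ha)).norm
    rwa [norm_zero] at this
  rw [Finset.sum_const_zero] at h1
  filter_upwards [h1.eventually (ge_mem_nhds zero_lt_one), eventually_ge_atTop K₀] with K hK1 hK2
  have h2 : ∑ a ∈ A, c a • (yOf B a (x a) - ∑ j ∈ Finset.range K, x a j) -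
      ∑ a ∈ A, c a • F.es a = ∑ a ∈ A, c a • (B.br a).tail K +
      ∑ a ∈ A, c a • (∑' k, (x a k - (B.br a).node k) -
        ∑ k ∈ Finset.range K, (x a k - (B.br a).node k)) := by
    rw [← Finset.sum_sub_distrib, ← Finset.sum_add_distrib]
    refine Finset.sum_congr rfl fun a _ => ?_
    have h5 : c a • (yOf B a (x a) - ∑ j ∈ Finset.range K, x a j) - c a • F.es a =
        c a • (yOf B a (x a) - ∑ j ∈ Finset.range K, x a j - F.es a) := (smul_sub _ _ _).symm
    rw [h5, yOf_sub]
    exact smul_add _ _ _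
  rw [h2]
  have h3 : ‖∑ a ∈ A, c a • (∑' k, (x a k - (B.br a).node k) -
        ∑ k ∈ Finset.range K, (x a k - (B.br a).node k))‖ ≤ C * 1 := by
    calc _ ≤ ∑ a ∈ A, ‖c a • (∑' k, (x a k - (B.br a).node k) -
        ∑ k ∈ Finset.range K, (x a k - (B.br a).node k))‖ := norm_sum_le _ _
      _ ≤ ∑ a ∈ A, C * ‖∑' k, (x a k - (B.br a).node k) -
        ∑ k ∈ Finset.range K, (x a k - (B.br a).node k)‖ := by
          refine Finset.sum_le_sum fun a ha => ?_
          rw [norm_smul, Real.norm_eq_abs]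
          exact mul_le_mul_of_nonneg_right (hC a ha) (norm_nonneg _)
      _ = C * ∑ a ∈ A, ‖∑' k, (x a k - (B.br a).node k) -
        ∑ k ∈ Finset.range K, (x a k - (B.br a).node k)‖ := by rw [Finset.mul_sum]
      _ ≤ C * 1 := mul_le_mul_of_nonneg_left hK1 hC0
  have h4 := hK₀ K hK2 c C hC hC0
  calc _ ≤ _ := norm_add_le _ _
    _ ≤ C + C * 1 := add_le_add h4 h3
    _ = 2 * C := by ring

/-- The candidate for `x μ k`. -/
noncomputable def cand {F : Frame ι V} (B : BranchSystem F) (μ : ι)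
    (prev : ∀ ν, ν < μ → ℕ → StrongDual ℝ V) (k K : ℕ) : StrongDual ℝ V :=
  ∑ a ∈ (B.br μ).supp k, (B.br μ).coef k a •
    (if h : a < μ then (yOf B a (prev a h) - ∑ j ∈ Finset.range K, prev a h j) else 0)

open Classical in
/-- One step of the recursion. -/
noncomputable def step {F : Frame ι V} (B : BranchSystem F) (μ : ι)
    (prev : ∀ ν, ν < μ → ℕ → StrongDual ℝ V) (k : ℕ) : StrongDual ℝ V :=
  if h : ∃ K, ‖cand B μ prev k K - (B.br μ).node k‖ ≤ 2 * (B.br μ).bd k then
    cand B μ prev k h.choose else 0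

variable [WellFoundedLT ι]

/-- The recursively defined `x`. -/
noncomputable def xRec {F : Frame ι V} (B : BranchSystem F) : ι → ℕ → StrongDual ℝ V :=
  (wellFounded_lt (α := ι)).fix fun μ prev => step B μ prev

theorem xRec_eq {F : Frame ι V} (B : BranchSystem F) (μ : ι) :
    xRec B μ = step B μ fun ν _ => xRec B ν := by
  unfold xRec
  rw [WellFounded.fix_eq]

theorem cand_eq {F : Frame ι V} (B : BranchSystem F) (μ : ι) (k K : ℕ) :
    cand B μ (fun ν _ => xRec B ν) k K = ∑ a ∈ (B.br μ).supp k, (B.br μ).coef k a •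
      (yOf B a (xRec B a) - ∑ j ∈ Finset.range K, xRec B a j) := by
  unfold cand
  refine Finset.sum_congr rfl fun a ha => ?_
  rw [dif_pos (B.supp_lt μ k a ha)]

theorem xRec_spec [CompleteSpace V] {F : Frame ι V} (B : BranchSystem F) (μ : ι) :
    (∀ k, ‖xRec B μ k - (B.br μ).node k‖ ≤ 2 * (B.br μ).bd k) ∧
    (∀ k, xRec B μ k ∈ Submodule.span ℝ ((fun a => yOf B a (xRec B a)) '' Set.Iio μ)) := by
  induction μ using (wellFounded_lt (α := ι)).induction with
  | _ μ ih =>
    have key : ∀ k, ∃ K, ‖cand B μ (fun ν _ => xRec B ν) k K - (B.br μ).node k‖ ≤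
        2 * (B.br μ).bd k := by
      intro k
      have := approx B (xRec B) ((B.br μ).supp k)
        (fun a ha => (ih a (B.supp_lt μ k a ha)).1) ((B.br μ).coef k) ((B.br μ).bd k)
        ((B.br μ).coef_le k) ((B.br μ).bd_nonneg k)
      obtain ⟨K, hK⟩ := this.exists
      exact ⟨K, by rw [cand_eq]; exact hK⟩
    have hmem : ∀ k K, cand B μ (fun ν _ => xRec B ν) k K ∈
        Submodule.span ℝ ((fun a => yOf B a (xRec B a)) '' Set.Iio μ) := by
      intro k K
      rw [cand_eq]
      refine Submodule.sum_mem _ fun a ha => Submodule.smul_mem _ _ (Submodule.sub_mem _ ?_ ?_)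
      · exact Submodule.subset_span ⟨a, B.supp_lt μ k a ha, rfl⟩
      · refine Submodule.sum_mem _ fun j _ => ?_
        have h1 := (ih a (B.supp_lt μ k a ha)).2 j
        refine Submodule.span_mono (Set.image_mono ?_) h1
        exact Set.Iio_subset_Iio (B.supp_lt μ k a ha).le
    refine ⟨fun k => ?_, fun k => ?_⟩
    · rw [xRec_eq, step, dif_pos (key k)]
      exact (key k).choose_spec
    · rw [xRec_eq B μ, step, dif_pos (key k)]
      exact hmem k _

theorem lim_zero {F : Frame ι V} (B : BranchSystem F) (μ ν : ι) (h : μ ≤ ν) :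
    (B.br μ).lim (F.e ν) = 0 := by
  refine tendsto_nhds_unique ((B.br μ).lim_tendsto (F.e ν)) ?_
  have : (fun K => ∑ k ∈ Finset.range K, ∑ a ∈ (B.br μ).supp k,
      (B.br μ).coef k a * F.es a (F.e ν)) = fun _ => 0 := by
    funext K
    refine Finset.sum_eq_zero fun k _ => Finset.sum_eq_zero fun a ha => ?_
    rw [F.es_e, if_neg (((B.supp_lt μ k a ha).trans_le h).ne), mul_zero]
  rw [this]
  exact tendsto_const_nhds

theorem node_zero {F : Frame ι V} (B : BranchSystem F) (μ ν : ι) (h : μ ≤ ν) (k : ℕ) :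
    (B.br μ).node k (F.e ν) = 0 := by
  rw [Branch.node_apply]
  refine Finset.sum_eq_zero fun a ha => ?_
  rw [F.es_e, if_neg (((B.supp_lt μ k a ha).trans_le h).ne), mul_zero]

theorem span_zero {S : Set (StrongDual ℝ V)} {v : V} (hS : ∀ z ∈ S, z v = 0)
    {z : StrongDual ℝ V} (hz : z ∈ Submodule.span ℝ S) : z v = 0 := by
  induction hz using Submodule.span_induction with
  | mem x hx => exact hS x hx
  | zero => rfl
  | add x y _ _ hx hy => rw [add_apply, hx, hy, add_zero]
  | smul a x _ hx => rw [smul_apply, hx, smul_zero]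

theorem tsum_apply_zero [CompleteSpace V] {f : ℕ → StrongDual ℝ V} (hf : Summable f) {v : V}
    (h : ∀ k, f k v = 0) : (∑' k, f k) v = 0 := by
  have h1 : (∑' k, f k) v = ∑' k, f k v :=
    (ContinuousLinearMap.apply ℝ ℝ v).map_tsum hf
  rw [h1]
  simp [h]

theorem y_lt [CompleteSpace V] {F : Frame ι V} (B : BranchSystem F) (μ : ι) :
    ∀ ν, μ < ν → yOf B μ (xRec B μ) (F.e ν) = 0 := by
  induction μ using (wellFounded_lt (α := ι)).induction with
  | _ μ ih =>
    intro ν hν
    rw [yOf, add_apply, add_apply, F.es_e,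
      if_neg hν.ne, lim_zero B μ ν hν.le, zero_add, zero_add]
    refine tsum_apply_zero (summable_sub_node B μ _ (xRec_spec B μ).1) fun k => ?_
    rw [sub_apply, node_zero B μ ν hν.le, sub_zero]
    refine span_zero ?_ ((xRec_spec B μ).2 k)
    rintro _ ⟨a, ha, rfl⟩
    exact ih a ha ν (lt_trans ha hν)

theorem y_self [CompleteSpace V] {F : Frame ι V} (B : BranchSystem F) (μ : ι) :
    yOf B μ (xRec B μ) (F.e μ) = 1 := by
  rw [yOf, add_apply, add_apply, F.es_e,
    if_pos rfl, lim_zero B μ μ le_rfl, add_zero]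
  rw [tsum_apply_zero (summable_sub_node B μ _ (xRec_spec B μ).1) fun k => ?_, add_zero]
  rw [sub_apply, node_zero B μ μ le_rfl, sub_zero]
  refine span_zero ?_ ((xRec_spec B μ).2 k)
  rintro _ ⟨a, ha, rfl⟩
  exact y_lt B a μ ha

theorem norming_aux [CompleteSpace V] {F : Frame ι V} (B : BranchSystem F) (v : V) (M : ℝ)
    (hM : 0 ≤ M)
    (h : ∀ z ∈ Submodule.span ℝ (Set.range fun μ => yOf B μ (xRec B μ)), |z v| ≤ M * ‖z‖) :
    ‖v‖ ≤ 3 * M := by
  refine le_of_forall_pos_le_add fun ε hε => ?_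
  obtain ⟨A, c, hc, hn, hv⟩ := F.norming v ε hε
  have h1 := approx B (xRec B) A (fun a _ => (xRec_spec B a).1) c 1 hc zero_le_one
  have h2 : Tendsto (fun K => (∑ a ∈ A, c a • (yOf B a (xRec B a) -
      ∑ j ∈ Finset.range K, xRec B a j)) v) atTop (𝓝 (∑ a ∈ A, c a * F.es a v)) := by
    have : Tendsto (fun K => ∑ a ∈ A, c a * (yOf B a (xRec B a) -
      ∑ j ∈ Finset.range K, xRec B a j) v) atTop (𝓝 (∑ a ∈ A, c a * F.es a v)) :=
      tendsto_finsetSum _ fun a _ =>
        (yOf_sub_tendsto B a (xRec B a) (xRec_spec B a).1 v).const_mul (c a)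
    refine this.congr fun K => ?_
    rw [sum_apply]
    refine Finset.sum_congr rfl fun a _ => ?_
    rw [smul_apply, smul_eq_mul]
  have h3 : ∑ a ∈ A, c a * F.es a v ≤ 3 * M := by
    refine le_of_tendsto h2 ?_
    filter_upwards [h1] with K hK
    have hmem : (∑ a ∈ A, c a • (yOf B a (xRec B a) - ∑ j ∈ Finset.range K, xRec B a j)) ∈
        Submodule.span ℝ (Set.range fun μ => yOf B μ (xRec B μ)) := by
      refine Submodule.sum_mem _ fun a _ => Submodule.smul_mem _ _ (Submodule.sub_mem _ ?_ ?_)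
      · exact Submodule.subset_span ⟨a, rfl⟩
      · refine Submodule.sum_mem _ fun j _ => ?_
        exact Submodule.span_mono (Set.image_subset_range _ _) ((xRec_spec B a).2 j)
    have hb := h _ hmem
    have hnorm : ‖∑ a ∈ A, c a • (yOf B a (xRec B a) - ∑ j ∈ Finset.range K, xRec B a j)‖ ≤
        3 := by
      have e1 : (∑ a ∈ A, c a • (yOf B a (xRec B a) - ∑ j ∈ Finset.range K, xRec B a j)) =
          ((∑ a ∈ A, c a • (yOf B a (xRec B a) - ∑ j ∈ Finset.range K, xRec B a j)) -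
            ∑ a ∈ A, c a • F.es a) + ∑ a ∈ A, c a • F.es a := by abel
      rw [e1]
      refine (norm_add_le _ _).trans ?_
      linarith
    calc _ ≤ _ := le_abs_self _
      _ ≤ _ := hb
      _ ≤ M * 3 := mul_le_mul_of_nonneg_left hnorm hM
      _ = 3 * M := by ring
  linarith

/-- The projection of a finitely supported functional. -/
theorem sum_comp_P {F : Frame ι V} (A : Finset ι) (c : ι → ℝ) (a : ι) (v : V) :
    (∑ b ∈ A.filter (· < a), c b • F.es b) v = (∑ b ∈ A, c b • F.es b) (F.P a v) := by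
  have h1 : (∑ b ∈ A.filter (· < a), c b • F.es b) = (∑ b ∈ A, c b • F.es b).comp (F.P a) := by
    have hd : Dense ((Submodule.span ℝ (Set.range F.e) : Submodule ℝ V) : Set V) :=
      Submodule.dense_iff_topologicalClosure_eq_top.2 F.dense
    refine ContinuousLinearMap.ext_on hd ?_
    rintro _ ⟨i, rfl⟩
    simp only [ContinuousLinearMap.comp_apply, F.P_e, sum_apply, smul_apply, smul_eq_mul]
    by_cases hi : i < a
    · simp only [hi, if_true, F.es_e, mul_ite, mul_one, mul_zero]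
      rw [Finset.sum_ite_eq' , Finset.sum_ite_eq']
      simp [hi]
    · simp only [hi, if_false, map_zero, mul_zero, Finset.sum_const_zero, F.es_e, mul_ite, mul_one]
      rw [Finset.sum_ite_eq']
      simp [hi]
  rw [h1]
  rfl

theorem norming_lt_aux [CompleteSpace V] {F : Frame ι V} (B : BranchSystem F) (a₀ : ι) (v : V)
    (M : ℝ) (hM : 0 ≤ M) (hPv : F.P a₀ v = v)
    (h : ∀ z ∈ Submodule.span ℝ ((fun μ => yOf B μ (xRec B μ)) '' Set.Iio a₀),
      |z v| ≤ M * ‖z‖) :
    ‖v‖ ≤ 3 * M := by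
  refine le_of_forall_pos_le_add fun ε hε => ?_
  obtain ⟨A', c, hc', hn', hv'⟩ := F.norming v ε hε
  set A := A'.filter (· < a₀) with hA
  have hc : ∀ a ∈ A, |c a| ≤ 1 := fun a ha => hc' a (Finset.mem_filter.1 ha).1
  have hlt : ∀ a ∈ A, a < a₀ := fun a ha => (Finset.mem_filter.1 ha).2
  have hn : ‖∑ a ∈ A, c a • F.es a‖ ≤ 1 := by
    refine ContinuousLinearMap.opNorm_le_bound _ zero_le_one fun w => ?_
    rw [sum_comp_P]
    refine (ContinuousLinearMap.le_opNorm _ _).trans ?_
    refine mul_le_mul hn' ?_ (norm_nonneg _) zero_le_one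
    have := (F.P a₀).le_opNorm w
    nlinarith [F.norm_P_le a₀, norm_nonneg w]
  have hv : ‖v‖ - ε ≤ ∑ a ∈ A, c a * F.es a v := by
    have h2 := sum_comp_P (F := F) A' c a₀ v
    rw [hPv] at h2
    simp only [sum_apply, smul_apply, smul_eq_mul] at h2
    rw [hA, h2]
    exact hv'
  have h1 := approx B (xRec B) A (fun a _ => (xRec_spec B a).1) c 1 hc zero_le_one
  have h2 : Tendsto (fun K => (∑ a ∈ A, c a • (yOf B a (xRec B a) -
      ∑ j ∈ Finset.range K, xRec B a j)) v) atTop (𝓝 (∑ a ∈ A, c a * F.es a v)) := by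
    have : Tendsto (fun K => ∑ a ∈ A, c a * (yOf B a (xRec B a) -
      ∑ j ∈ Finset.range K, xRec B a j) v) atTop (𝓝 (∑ a ∈ A, c a * F.es a v)) :=
      tendsto_finsetSum _ fun a _ =>
        (yOf_sub_tendsto B a (xRec B a) (xRec_spec B a).1 v).const_mul (c a)
    refine this.congr fun K => ?_
    rw [sum_apply]
    refine Finset.sum_congr rfl fun a _ => ?_
    rw [smul_apply, smul_eq_mul]
  have h3 : ∑ a ∈ A, c a * F.es a v ≤ 3 * M := by
    refine le_of_tendsto h2 ?_
    filter_upwards [h1] with K hK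
    have hmem : (∑ a ∈ A, c a • (yOf B a (xRec B a) - ∑ j ∈ Finset.range K, xRec B a j)) ∈
        Submodule.span ℝ ((fun μ => yOf B μ (xRec B μ)) '' Set.Iio a₀) := by
      refine Submodule.sum_mem _ fun a ha => Submodule.smul_mem _ _ (Submodule.sub_mem _ ?_ ?_)
      · exact Submodule.subset_span ⟨a, hlt a ha, rfl⟩
      · refine Submodule.sum_mem _ fun j _ => ?_
        exact Submodule.span_mono (Set.image_mono (Set.Iio_subset_Iio (hlt a ha).le))
          ((xRec_spec B a).2 j)
    have hb := h _ hmem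
    have hnorm : ‖∑ a ∈ A, c a • (yOf B a (xRec B a) - ∑ j ∈ Finset.range K, xRec B a j)‖ ≤
        3 := by
      have e1 : (∑ a ∈ A, c a • (yOf B a (xRec B a) - ∑ j ∈ Finset.range K, xRec B a j)) =
          ((∑ a ∈ A, c a • (yOf B a (xRec B a) - ∑ j ∈ Finset.range K, xRec B a j)) -
            ∑ a ∈ A, c a • F.es a) + ∑ a ∈ A, c a • F.es a := by abel
      rw [e1]
      refine (norm_add_le _ _).trans ?_
      linarith
    calc _ ≤ _ := le_abs_self _
      _ ≤ _ := hb
      _ ≤ M * 3 := mul_le_mul_of_nonneg_left hnorm hM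
      _ = 3 * M := by ring
  linarith

theorem generatorsExist : GeneratorsExist.{u, v} := by
  intro ι _ _ V _ _ _ F B
  exact ⟨{
    y := fun μ => yOf B μ (xRec B μ)
    x := xRec B
    x_mem := fun μ k => (xRec_spec B μ).2 k
    x_sub_node := fun μ k => (xRec_spec B μ).1 k
    y_eq := fun μ => rfl
    y_self := fun μ => y_self B μ
    y_lt := fun μ ν h => y_lt B μ ν h
    norming := fun v M hM h => norming_aux B v M hM h
    norming_lt := fun a v M hM hP h => norming_lt_aux B a v M hM hP h }⟩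

end Vale.Agent.P129.H168
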